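import Vale.Agent.P245.Main

open MeasureTheory
open scoped InnerProductSpace ContDiff

namespace Vale.Agent.Results.P245.Polylog

theorem result : ∃ C : ℝ, 0 < C ∧ ∀ (n : ℕ), 1 ≤ n →
    ∀ (μ : Measure (EuclideanSpace ℝ (Fin n))) (ρ : EuclideanSpace ℝ (Fin n) → ℝ),
      IsProbabilityMeasure μ → Measurable ρ → (∀ x, 0 ≤ ρ x) →
      μ = volume.withDensity (fun x => ENNReal.ofReal (ρ x)) →
      Convex ℝ {x | 0 < ρ x} → ConcaveOn ℝ {x | 0 < ρ x} (fun x => Real.log (ρ x)) →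
      Integrable (fun x => x) μ → ∫ x, x ∂μ = 0 →
      ∀ a : ℝ, 0 < a →
        (∀ θ : EuclideanSpace ℝ (Fin n), ‖θ‖ = 1 →
          ∫⁻ x, ENNReal.ofReal (Real.exp (⟪x, θ⟫_ℝ ^ 2 / a ^ 2)) ∂μ ≤ 2) →
        ∀ f : EuclideanSpace ℝ (Fin n) → ℝ, ContDiff ℝ ∞ f → HasCompactSupport f →
          ∫ x, f x ^ 2 * Real.log (f x ^ 2) ∂μ -
              (∫ x, f x ^ 2 ∂μ) * Real.log (∫ x, f x ^ 2 ∂μ) ≤
            C * (1 + Real.log n) ^ 7 * a ^ 2 * ∫ x, ‖gradient f x‖ ^ 2 ∂μ := by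
  refine ⟨200 * (4 * 10 ^ 11 * 27 ^ 7), by norm_num,
    fun n hn μ ρ hp hm h0 hμ _ hc hi hz a ha hs f hf hcs => ?_⟩
  obtain ⟨J, hJ, h1, h2⟩ := Vale.Agent.P245.exists_J hn
  have hA : 0 < a ^ 2 := by positivity
  have H := Vale.Agent.P245.main_dl ⟨hp, ρ, Vale.Agent.P245.lcf_of hm h0 hc, hμ⟩ hA
    (Vale.Agent.P245.sg_of hi hz ha hs) hJ h1
  have key := Vale.Agent.P245.tight (by positivity) H
    (Vale.Agent.P245.bd1_of (hf.of_le (by exact_mod_cast le_top)) hcs)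
  have h3 : (J : ℝ) ^ 7 ≤ (27 * (1 + Real.log n)) ^ 7 := pow_le_pow_left₀ (by positivity) h2 7
  have h4 : 0 ≤ ∫ x, ‖gradient f x‖ ^ 2 ∂μ := integral_nonneg fun x => sq_nonneg _
  refine key.trans (mul_le_mul_of_nonneg_right ?_ h4)
  rw [mul_pow] at h3
  nlinarith

end Vale.Agent.Results.P245.Polylog
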